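import Vale.Agent.P166.Defs

/-! # P166, ABEL: summation by parts and top sums -/

namespace Vale.Agent.P166

open Finset

/-- Abel summation.  (Induction on `n`:
`∑_{i<n} g i * d i ≥ g_{n-1} (D_n + E) - g_0 E`.) -/
theorem abel_nat (n : ℕ) (g d : ℕ → ℝ) (E G : ℝ) (hE : 0 ≤ E)
    (hg : ∀ i j, i ≤ j → j < n → g j ≤ g i) (hg0 : ∀ i, i < n → 0 ≤ g i)
    (hG : ∀ i, i < n → g i ≤ G) (hG0 : 0 ≤ G)
    (hd : ∀ k, k ≤ n → -E ≤ ∑ i ∈ range k, d i) :
    -(G * E) ≤ ∑ i ∈ range n, g i * d i := by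
  have key : ∀ m, m < n → g m * (∑ i ∈ range (m + 1), d i + E) - g 0 * E ≤
      ∑ i ∈ range (m + 1), g i * d i := by
    intro m
    induction m with
    | zero =>
      intro _
      simp only [zero_add, sum_range_one]
      linarith [mul_add (g 0) (d 0) E]
    | succ m ih =>
      intro hm
      have h1 := ih (by omega)
      have h2 := hg m (m + 1) (Nat.le_succ m) hm
      have h3 := hd (m + 1) (by omega)
      rw [sum_range_succ (fun i => g i * d i), sum_range_succ d]
      nlinarith [mul_nonneg (sub_nonneg.mpr h2) (by linarith : 0 ≤ ∑ i ∈ range (m + 1), d i + E)]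
  rcases n with _ | n
  · simp only [range_zero, sum_empty, Left.neg_nonpos_iff]
    exact mul_nonneg hG0 hE
  · have h1 := key n (Nat.lt_succ_self n)
    have h2 := hd (n + 1) le_rfl
    have h3 := hg0 n (Nat.lt_succ_self n)
    have h4 := hG 0 (Nat.succ_pos n)
    have h5 : 0 ≤ g n * (∑ i ∈ range (n + 1), d i + E) := mul_nonneg h3 (by linarith)
    have h6 : g 0 * E ≤ G * E := mul_le_mul_of_nonneg_right h4 hE
    linarith

theorem abel_fin {N : ℕ} (g d : Fin N → ℝ) (E G : ℝ) (hE : 0 ≤ E) (hg : Antitone g)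
    (hg0 : ∀ i, 0 ≤ g i) (hG : ∀ i, g i ≤ G) (hG0 : 0 ≤ G)
    (hd : ∀ k, k ≤ N → -E ≤ ∑ i : Fin N, if i.1 < k then d i else 0) :
    -(G * E) ≤ ∑ i, g i * d i := by
  let g' : ℕ → ℝ := fun i => if h : i < N then g ⟨i, h⟩ else 0
  let d' : ℕ → ℝ := fun i => if h : i < N then d ⟨i, h⟩ else 0
  have e1 : ∑ i, g i * d i = ∑ i ∈ range N, g' i * d' i := by
    rw [sum_range]
    refine sum_congr rfl fun i _ => ?_
    simp only [g', d', dif_pos i.2]
  rw [e1]
  refine abel_nat N g' d' E G hE ?_ ?_ ?_ hG0 ?_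
  · intro i j hij hj
    simp only [g', dif_pos hj, dif_pos (lt_of_le_of_lt hij hj)]
    exact hg (Fin.mk_le_mk.mpr hij)
  · intro i hi
    simp only [g', dif_pos hi]
    exact hg0 _
  · intro i hi
    simp only [g', dif_pos hi]
    exact hG _
  · intro k hk
    have e2 : ∑ i ∈ range k, d' i = ∑ i : Fin N, if i.1 < k then d i else 0 := by
      have e3 : ∑ i ∈ range N, (if i < k then d' i else 0) =
          ∑ i : Fin N, if i.1 < k then d i else 0 := by
        rw [sum_range]
        refine sum_congr rfl fun i _ => ?_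
        simp only [d', dif_pos i.2]
      rw [← e3, ← sum_filter]
      refine sum_congr ?_ fun _ _ => rfl
      ext i
      simp only [mem_range, mem_filter]
      omega
    rw [e2]
    exact hd k hk

/-- Top sums: with `t = lam' (k-1)`, `∑_{i<k} lam' i = k t + ∑_i (lam' i - t)_+` as `lam'` is
antitone, and `∑_{i<k} lam i ≤ k t + ∑_i (lam i - t)_+` always. -/
theorem top_sums {N : ℕ} (lam lam' : Fin N → ℝ) (h' : Antitone lam') (ε : ℝ) (hε : 0 ≤ ε)
    (hs : ∀ t, stop lam t ≤ stop lam' t + ε) (k : ℕ) (hk : k ≤ N) :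
    -(ε * N) ≤ ∑ i : Fin N, if i.1 < k then lam' i - lam i else 0 := by
  rcases Nat.eq_zero_or_pos k with rfl | hk0
  · simp only [not_lt_zero, if_false, sum_const_zero, Left.neg_nonpos_iff]
    positivity
  have hN : 0 < N := lt_of_lt_of_le hk0 hk
  have hN' : (0 : ℝ) < N := by exact_mod_cast hN
  let t : ℝ := lam' ⟨k - 1, by omega⟩
  have h1 := hs t
  unfold stop at h1
  have h2 : ∑ i, max (lam i - t) 0 ≤ ∑ i, max (lam' i - t) 0 + ε * N := by
    have h3 := mul_le_mul_of_nonneg_left h1 hN'.le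
    have h4 : (N : ℝ) * (1 / (N : ℝ) * ∑ i, max (lam i - t) 0) = ∑ i, max (lam i - t) 0 := by
      field_simp
    have h5 : (N : ℝ) * (1 / (N : ℝ) * ∑ i, max (lam' i - t) 0 + ε) =
        ∑ i, max (lam' i - t) 0 + ε * N := by
      field_simp
    rw [h4, h5] at h3
    exact h3
  have h6 : ∀ i : Fin N, max (lam' i - t) 0 - max (lam i - t) 0 ≤
      if i.1 < k then lam' i - lam i else 0 := by
    intro i
    split
    · rename_i hi
      have h7 : t ≤ lam' i := h' (Fin.mk_le_mk.mpr (by omega))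
      rw [max_eq_left (by linarith)]
      linarith [le_max_left (lam i - t) 0]
    · rename_i hi
      have h7 : lam' i ≤ t := h' (Fin.mk_le_mk.mpr (by omega))
      rw [max_eq_right (by linarith)]
      linarith [le_max_right (lam i - t) 0]
  have h8 := sum_le_sum fun i (_ : i ∈ (univ : Finset (Fin N))) => h6 i
  rw [sum_sub_distrib] at h8
  linarith

end Vale.Agent.P166
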