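import Mathlib

/-! # P166: the pressure of orthogonally invariant Ising spin glasses: definitions (helper22) -/

namespace Vale.Agent.P166

open MeasureTheory Filter Topology Matrix

/-- the orthogonal group `O(N)` -/
abbrev OG (N : ℕ) := Matrix.orthogonalGroup (Fin N) ℝ

/-- Borel σ-algebra of `O(N)` -/
instance instMeasOG (N : ℕ) : MeasurableSpace (OG N) := borel _

instance instBorelOG (N : ℕ) : BorelSpace (OG N) := ⟨rfl⟩

/-- the spin configuration in `{-1, 1}^N` -/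
def spin {N : ℕ} (σ : Fin N → Bool) (i : Fin N) : ℝ := if σ i then 1 else -1

/-- the coupling matrix `J = Uᵀ Λ U` -/
def coupling {N : ℕ} (lam : Fin N → ℝ) (U : OG N) : Matrix (Fin N) (Fin N) ℝ :=
  (U : Matrix (Fin N) (Fin N) ℝ)ᵀ * Matrix.diagonal lam * (U : Matrix (Fin N) (Fin N) ℝ)

/-- the pressure `P_N(β) = (1/N) log (2^{-N} ∑_σ exp((β/2) σᵀ J σ))` -/
noncomputable def pressure {N : ℕ} (β : ℝ) (lam : Fin N → ℝ) (U : OG N) : ℝ :=
  (1 / (N : ℝ)) * Real.log ((2 : ℝ)⁻¹ ^ N *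
    ∑ σ : Fin N → Bool, Real.exp (β / 2 * (spin σ ⬝ᵥ (coupling lam U *ᵥ spin σ))))

/-- The array `lam N i` has the limit law `μ`, and its smallest and largest entries converge to the
minimum and the maximum of the support of `μ`. -/
structure IsArray (μ : Measure ℝ) (lam : ∀ N : ℕ, Fin N → ℝ) : Prop where
  weak : ∀ f : BoundedContinuousFunction ℝ ℝ,
    Tendsto (fun N : ℕ => (1 / (N : ℝ)) * ∑ i, f (lam N i)) atTop (𝓝 (∫ x, f x ∂μ))
  lo : Tendsto (fun N : ℕ => ⨅ i, lam N i) atTop (𝓝 (sInf μ.support))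
  hi : Tendsto (fun N : ℕ => ⨆ i, lam N i) atTop (𝓝 (sSup μ.support))

/-! ### internal -/

/-- `(U s)_i^2` -/
noncomputable def sq {N : ℕ} (U : OG N) (σ : Fin N → Bool) (i : Fin N) : ℝ :=
  ((U : Matrix (Fin N) (Fin N) ℝ) *ᵥ spin σ) i ^ 2

/-- Boltzmann weight -/
noncomputable def wt {N : ℕ} (β : ℝ) (lam : Fin N → ℝ) (U : OG N) (σ : Fin N → Bool) : ℝ :=
  Real.exp (β / 2 * ∑ i, lam i * sq U σ i)

/-- the gradient of the pressure, `(β/2N) <(U σ)_i^2>` -/
noncomputable def grad {N : ℕ} (β : ℝ) (lam : Fin N → ℝ) (U : OG N) (i : Fin N) : ℝ :=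
  β / (2 * N) * ((∑ σ, wt β lam U σ * sq U σ i) / ∑ σ, wt β lam U σ)

/-- stop-loss function of an array -/
noncomputable def stop {N : ℕ} (lam : Fin N → ℝ) (t : ℝ) : ℝ :=
  (1 / (N : ℝ)) * ∑ i, max (lam i - t) 0

end Vale.Agent.P166
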