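import Vale.Agent.P166.Haar
import Vale.Agent.P166.Abel

/-! # P166, FINITE: the comparison inequality for fixed `N` -/

namespace Vale.Agent.P166

open MeasureTheory Filter Topology Matrix

variable {N : ℕ} (β : ℝ) (ν : Measure (OG N)) [IsProbabilityMeasure ν] [ν.IsMulLeftInvariant]

/-- FINITE: comparison for fixed `N` -/
theorem finite_ineq (hN : 0 < N) (hβ : 0 ≤ β) (lam lam' : Fin N → ℝ) (b δ ε κ : ℝ)
    (hδ : 0 ≤ δ) (hε : 0 ≤ ε) (hκ : 0 < κ) (h1 : ∀ i, lam i ≤ b + δ)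
    (h2 : κ * N ≤ ((Finset.univ.filter fun i : Fin N => b - δ ≤ lam i).card : ℝ))
    (h3 : ∀ t, stop lam t ≤ stop lam' t + ε) :
    ∫ U, pressure β lam U ∂ν ≤ ∫ U, pressure β lam' U ∂ν + β * δ + β * ε / (2 * κ) := by
  sorry

/-- COUPLE: the same `U`, pointwise comparison in `L^1` -/
theorem finite_couple (hN : 0 < N) (hβ : 0 ≤ β) (lam lam' : Fin N → ℝ) (b δ κ : ℝ)
    (hδ : 0 ≤ δ) (hκ : 0 < κ) (h1 : ∀ i, lam i ≤ b + δ)
    (h2 : κ * N ≤ ((Finset.univ.filter fun i : Fin N => b - δ ≤ lam i).card : ℝ)) :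
    ∫ U, max (pressure β lam U - pressure β lam' U) 0 ∂ν ≤
      β * δ + β / (2 * κ) * ((1 / (N : ℝ)) * ∑ i, max (lam i - lam' i) 0) := by
  sorry

end Vale.Agent.P166
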