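import Vale.Agent.P166.Defs

/-! # P166, GRAD: the subgradient inequality for fixed `U` -/

namespace Vale.Agent.P166

open MeasureTheory Filter Topology Matrix

variable {N : ℕ} (β : ℝ) (lam lam' : Fin N → ℝ) (U : OG N)

theorem quad_eq (σ : Fin N → Bool) :
    spin σ ⬝ᵥ (coupling lam U *ᵥ spin σ) = ∑ i, lam i * sq U σ i := by
  unfold coupling sq
  rw [← Matrix.mulVec_mulVec, ← Matrix.mulVec_mulVec, Matrix.dotProduct_mulVec,
    Matrix.vecMul_transpose]
  unfold dotProduct
  refine Finset.sum_congr rfl fun i _ => ?_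
  rw [Matrix.mulVec_diagonal]
  ring

theorem sum_sq (σ : Fin N → Bool) : ∑ i, sq U σ i = N := by
  have h1 : ∑ i, sq U σ i = ((U : Matrix (Fin N) (Fin N) ℝ) *ᵥ spin σ) ⬝ᵥ
      ((U : Matrix (Fin N) (Fin N) ℝ) *ᵥ spin σ) := by
    unfold sq dotProduct
    refine Finset.sum_congr rfl fun i _ => ?_
    rw [pow_two]
  have hU : (U : Matrix (Fin N) (Fin N) ℝ)ᵀ * (U : Matrix (Fin N) (Fin N) ℝ) = 1 :=
    (Matrix.mem_orthogonalGroup_iff' (Fin N) ℝ).1 U.2
  rw [h1, Matrix.dotProduct_mulVec, ← Matrix.mulVec_transpose, Matrix.mulVec_mulVec, hU,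
    Matrix.one_mulVec]
  unfold dotProduct
  have h2 : ∀ i, spin σ i * spin σ i = 1 := by
    intro i
    unfold spin
    split_ifs <;> norm_num
  rw [Finset.sum_congr rfl fun i _ => h2 i]
  simp

theorem sq_nonneg' (σ : Fin N → Bool) (i : Fin N) : 0 ≤ sq U σ i := by
  unfold sq
  exact sq_nonneg _

theorem sq_le (σ : Fin N → Bool) (i : Fin N) : sq U σ i ≤ N := by
  rw [← sum_sq U σ]
  exact Finset.single_le_sum (fun j _ => sq_nonneg' U σ j) (Finset.mem_univ i)

theorem wt_pos (σ : Fin N → Bool) : 0 < wt β lam U σ := by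
  unfold wt
  exact Real.exp_pos _

theorem pressure_eq : pressure β lam U =
    (1 / (N : ℝ)) * Real.log ((2 : ℝ)⁻¹ ^ N * ∑ σ, wt β lam U σ) := by
  unfold pressure wt
  simp only [quad_eq]

private theorem grad_Z_pos : 0 < ∑ σ : Fin N → Bool, wt β lam U σ :=
  Finset.sum_pos (fun σ _ => wt_pos β lam U σ) Finset.univ_nonempty

theorem grad_nonneg (hβ : 0 ≤ β) (i : Fin N) : 0 ≤ grad β lam U i := by
  unfold grad
  refine mul_nonneg (by positivity) (div_nonneg ?_ (grad_Z_pos β lam U).le)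
  exact Finset.sum_nonneg fun σ _ => mul_nonneg (wt_pos β lam U σ).le (sq_nonneg' U σ i)

theorem grad_sum (hN : 0 < N) : ∑ i, grad β lam U i = β / 2 := by
  have hN' : (N : ℝ) ≠ 0 := Nat.cast_ne_zero.2 hN.ne'
  have hZ := (grad_Z_pos β lam U).ne'
  unfold grad
  rw [← Finset.mul_sum, ← Finset.sum_div, Finset.sum_comm]
  have h1 : ∑ σ : Fin N → Bool, ∑ i, wt β lam U σ * sq U σ i =
      (∑ σ : Fin N → Bool, wt β lam U σ) * N := by
    rw [Finset.sum_mul]
    refine Finset.sum_congr rfl fun σ _ => ?_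
    rw [← Finset.mul_sum, sum_sq]
  rw [h1]
  field_simp

private theorem grad_inner : ∑ i, grad β lam U i * (lam' i - lam i) =
    (1 / (N : ℝ)) * ((∑ σ, wt β lam U σ * (β / 2 * ∑ i, (lam' i - lam i) * sq U σ i)) /
      ∑ σ, wt β lam U σ) := by
  have h1 : ∑ σ, wt β lam U σ * (β / 2 * ∑ i, (lam' i - lam i) * sq U σ i) =
      β / 2 * ∑ i, (lam' i - lam i) * ∑ σ, wt β lam U σ * sq U σ i := by
    simp only [Finset.mul_sum]
    rw [Finset.sum_comm]
    refine Finset.sum_congr rfl fun i _ => Finset.sum_congr rfl fun σ _ => ?_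
    ring
  rw [h1]
  unfold grad
  rw [mul_div_assoc, Finset.sum_div, Finset.mul_sum, Finset.mul_sum]
  refine Finset.sum_congr rfl fun i _ => ?_
  by_cases hN : (N : ℝ) = 0
  · rw [hN]
    simp
  · field_simp

/-- Jensen: `log (∑ w e^x / ∑ w) ≥ <x>` with `x_σ = (β/2) ∑ (λ'_i - λ_i) (Uσ)_i^2`. -/
theorem pressure_grad :
    pressure β lam U + ∑ i, grad β lam U i * (lam' i - lam i) ≤ pressure β lam' U := by
  have hZ := grad_Z_pos β lam U
  have hZ' := grad_Z_pos β lam' U
  rw [grad_inner, pressure_eq, pressure_eq, ← mul_add]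
  refine mul_le_mul_of_nonneg_left ?_ (by positivity)
  set x : (Fin N → Bool) → ℝ := fun σ => β / 2 * ∑ i, (lam' i - lam i) * sq U σ i with hx
  set m : ℝ := (∑ σ, wt β lam U σ * x σ) / ∑ σ, wt β lam U σ with hm
  have hw : ∀ σ, wt β lam' U σ = wt β lam U σ * Real.exp (x σ) := by
    intro σ
    unfold wt
    rw [← Real.exp_add, hx]
    congr 1
    simp only
    rw [← mul_add, ← Finset.sum_add_distrib]
    congr 1
    refine Finset.sum_congr rfl fun i _ => ?_
    ring
  have hexp : ∀ σ, Real.exp m * (1 + x σ - m) ≤ Real.exp (x σ) := by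
    intro σ
    have h1 : Real.exp (x σ) = Real.exp m * Real.exp (x σ - m) := by
      rw [← Real.exp_add]
      congr 1
      ring
    rw [h1]
    refine mul_le_mul_of_nonneg_left ?_ (Real.exp_pos m).le
    have := Real.add_one_le_exp (x σ - m)
    linarith
  have hsum : Real.exp m * ∑ σ, wt β lam U σ ≤ ∑ σ, wt β lam' U σ := by
    have h1 : Real.exp m * ∑ σ, wt β lam U σ =
        ∑ σ, wt β lam U σ * (Real.exp m * (1 + x σ - m)) := by
      have h2 : ∑ σ, wt β lam U σ * (Real.exp m * (1 + x σ - m)) =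
          Real.exp m * (∑ σ, wt β lam U σ + ∑ σ, wt β lam U σ * x σ -
            m * ∑ σ, wt β lam U σ) := by
        rw [Finset.mul_sum (f := fun σ => wt β lam U σ) (a := m), ← Finset.sum_add_distrib,
          ← Finset.sum_sub_distrib, Finset.mul_sum]
        refine Finset.sum_congr rfl fun σ _ => ?_
        ring
      have h3 : m * ∑ σ, wt β lam U σ = ∑ σ, wt β lam U σ * x σ := by
        rw [hm, div_mul_cancel₀ _ hZ.ne']
      rw [h2, h3, add_sub_cancel_right]
    rw [h1]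
    refine Finset.sum_le_sum fun σ _ => ?_
    rw [hw σ]
    exact mul_le_mul_of_nonneg_left (hexp σ) (wt_pos β lam U σ).le
  have h2N : (0 : ℝ) < (2 : ℝ)⁻¹ ^ N := by positivity
  have h4 : Real.log ((2 : ℝ)⁻¹ ^ N * ∑ σ, wt β lam U σ) + m =
      Real.log ((2 : ℝ)⁻¹ ^ N * (Real.exp m * ∑ σ, wt β lam U σ)) := by
    rw [mul_left_comm, Real.log_mul (Real.exp_pos m).ne' (mul_pos h2N hZ).ne', Real.log_exp,
      add_comm]
  rw [h4]
  exact Real.log_le_log (mul_pos h2N (mul_pos (Real.exp_pos m) hZ))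
    (mul_le_mul_of_nonneg_left hsum h2N.le)

variable {lam lam'}

theorem pressure_le_add (hβ : 0 ≤ β) (d : ℝ) (hd : 0 ≤ d) (h : ∀ i, lam i ≤ lam' i + d) :
    pressure β lam U ≤ pressure β lam' U + β / 2 * d := by
  have h1 := pressure_grad β lam lam' U
  have h2 : ∑ i, grad β lam U i * (-d) ≤ ∑ i, grad β lam U i * (lam' i - lam i) := by
    refine Finset.sum_le_sum fun i _ => ?_
    refine mul_le_mul_of_nonneg_left ?_ (grad_nonneg β lam U hβ i)
    linarith [h i]
  rw [← Finset.sum_mul] at h2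
  have h3 : ∑ i, grad β lam U i ≤ β / 2 := by
    rcases Nat.eq_zero_or_pos N with hN | hN
    · subst hN
      rw [Finset.univ_eq_empty, Finset.sum_empty]
      positivity
    · exact (grad_sum β lam U hN).le
  have h4 : (∑ i, grad β lam U i) * d ≤ β / 2 * d := mul_le_mul_of_nonneg_right h3 hd
  linarith

theorem pressure_mono (hβ : 0 ≤ β) (h : ∀ i, lam i ≤ lam' i) :
    pressure β lam U ≤ pressure β lam' U := by
  have h1 := pressure_grad β lam lam' U
  have h2 : 0 ≤ ∑ i, grad β lam U i * (lam' i - lam i) := by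
    refine Finset.sum_nonneg fun i _ => ?_
    exact mul_nonneg (grad_nonneg β lam U hβ i) (sub_nonneg.2 (h i))
  linarith

end Vale.Agent.P166
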