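import Vale.Agent.P166.Defs

/-! # P166, MEAS: continuity and integrability in `U` -/

namespace Vale.Agent.P166

open MeasureTheory Filter Topology Matrix

variable {N : ℕ} (β : ℝ) (lam : Fin N → ℝ)

theorem continuous_sq (σ : Fin N → Bool) (i : Fin N) : Continuous fun U : OG N => sq U σ i := by
  sorry

theorem continuous_pressure : Continuous (pressure β lam : OG N → ℝ) := by
  sorry

theorem continuous_grad (i : Fin N) : Continuous fun U : OG N => grad β lam U i := by
  sorry

/-- bounded: the quadratic form is at most `N * ∑ |lam i|` in absolute value (or: `O(N)` is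
compact) -/
theorem exists_pressure_bound : ∃ C, ∀ U : OG N, |pressure β lam U| ≤ C := by
  sorry

theorem exists_grad_bound (i : Fin N) : ∃ C, ∀ U : OG N, |grad β lam U i| ≤ C := by
  sorry

theorem integrable_pressure (ν : Measure (OG N)) [IsProbabilityMeasure ν] :
    Integrable (pressure β lam) ν := by
  sorry

theorem integrable_grad (ν : Measure (OG N)) [IsProbabilityMeasure ν] (i : Fin N) :
    Integrable (fun U => grad β lam U i) ν := by
  sorry

end Vale.Agent.P166
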