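import Vale.Agent.P166.Grad
import Vale.Agent.P166.Meas

/-! # P166, HAAR: permutation symmetry and ordering of the mean gradient -/

namespace Vale.Agent.P166

open MeasureTheory Filter Topology Matrix

variable {N : ℕ} (β : ℝ) (lam : Fin N → ℝ)

/-- permutation matrices -/
theorem exists_perm (π : Equiv.Perm (Fin N)) : ∃ V : OG N, ∀ (U : OG N) (s : Fin N → ℝ)
    (i : Fin N), (((V * U : OG N) : Matrix (Fin N) (Fin N) ℝ) *ᵥ s) (π i) =
      ((U : Matrix (Fin N) (Fin N) ℝ) *ᵥ s) i := by
  sorry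

variable (ν : Measure (OG N)) [IsProbabilityMeasure ν] [ν.IsMulLeftInvariant]

/-- the law of the pressure is invariant under permutations of the array -/
theorem integral_comp_perm (π : Equiv.Perm (Fin N)) (φ : ℝ → ℝ) :
    ∫ U, φ (pressure β (lam ∘ π) U) ∂ν = ∫ U, φ (pressure β lam U) ∂ν := by
  sorry

theorem integral_pressure_perm (π : Equiv.Perm (Fin N)) :
    ∫ U, pressure β (lam ∘ π) U ∂ν = ∫ U, pressure β lam U ∂ν := by
  sorry

theorem integral_grad_perm (π : Equiv.Perm (Fin N)) (i : Fin N) :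
    ∫ U, grad β (lam ∘ π) U i ∂ν = ∫ U, grad β lam U (π i) ∂ν := by
  sorry

/-- Take the integral of `pressure_grad` for `lam' = lam ∘ swap i j`: this gives
`(G i - G j) (lam i - lam j) ≥ 0`; if `lam i = lam j` then `G i = G j` by
`integral_grad_perm`. -/
theorem integral_grad_le (i j : Fin N) (h : lam i ≤ lam j) :
    ∫ U, grad β lam U i ∂ν ≤ ∫ U, grad β lam U j ∂ν := by
  sorry

end Vale.Agent.P166
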