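import Vale.Agent.P166.Defs

/-! # P166, LIM1, LIM2: limits of arrays -/

namespace Vale.Agent.P166

open MeasureTheory Filter Topology

variable {μ : Measure ℝ} [IsProbabilityMeasure μ] {lam : ∀ N : ℕ, Fin N → ℝ}

omit [IsProbabilityMeasure μ] in
/-- LIM0: all entries are eventually in `[a - δ, b + δ]`. -/
theorem eventually_range (h : IsArray μ lam) (δ : ℝ) (hδ : 0 < δ) :
    ∀ᶠ N : ℕ in atTop, ∀ i, sInf μ.support - δ ≤ lam N i ∧ lam N i ≤ sSup μ.support + δ := by
  have h1 := h.lo.eventually (lt_mem_nhds (show sInf μ.support - δ < sInf μ.support by linarith))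
  have h2 := h.hi.eventually (gt_mem_nhds (show sSup μ.support < sSup μ.support + δ by linarith))
  filter_upwards [h1, h2] with N hN1 hN2 i
  exact ⟨hN1.le.trans (ciInf_le (Set.finite_range _).bddBelow i),
    (le_ciSup (Set.finite_range _).bddAbove i).trans hN2.le⟩

/-- LIM1: `stop (lam N) t → ∫ (x - t)_+ dμ` uniformly in `t` (pointwise by `weak`, as the function
may be truncated above `b + 1`; uniformly as both sides are 1-Lipschitz in `t`, zero for
`t ≥ b + 1` and equal to `mean - t` for `t ≤ a - 1`). -/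
theorem stop_unif (hμ : IsCompact μ.support) (h : IsArray μ lam) (ε : ℝ) (hε : 0 < ε) :
    ∀ᶠ N : ℕ in atTop, ∀ t, |stop (lam N) t - ∫ x, max (x - t) 0 ∂μ| ≤ ε := by
  sorry

/-- the truncated ramp -/
private noncomputable def lim0Ramp (c : ℝ) (n : ℕ) (x : ℝ) : ℝ := min 1 (max 0 ((n : ℝ) * (x - c)))

private theorem lim0Ramp_cont (c : ℝ) (n : ℕ) : Continuous (lim0Ramp c n) := by
  unfold lim0Ramp
  fun_prop

private theorem lim0Ramp_nonneg (c : ℝ) (n : ℕ) (x : ℝ) : 0 ≤ lim0Ramp c n x :=
  le_min zero_le_one (le_max_left _ _)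

private theorem lim0Ramp_le (c : ℝ) (n : ℕ) (x : ℝ) : lim0Ramp c n x ≤ 1 := min_le_left _ _

private theorem lim0Ramp_zero {c : ℝ} {n : ℕ} {x : ℝ} (h : x ≤ c) : lim0Ramp c n x = 0 := by
  unfold lim0Ramp
  have : (n : ℝ) * (x - c) ≤ 0 := mul_nonpos_of_nonneg_of_nonpos (by positivity) (by linarith)
  rw [max_eq_left this, min_eq_right zero_le_one]

private theorem lim0Ramp_norm (c : ℝ) (n : ℕ) (x : ℝ) : ‖lim0Ramp c n x‖ ≤ 1 := by
  rw [Real.norm_eq_abs, abs_of_nonneg (lim0Ramp_nonneg c n x)]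
  exact lim0Ramp_le c n x

private theorem lim0Ramp_tendsto (c x : ℝ) :
    Tendsto (fun n : ℕ => lim0Ramp c n x) atTop (𝓝 ((Set.Ioi c).indicator 1 x)) := by
  by_cases hx : c < x
  · rw [Set.indicator_of_mem (show x ∈ Set.Ioi c from hx)]
    refine tendsto_const_nhds.congr' ?_
    obtain ⟨m, hm⟩ := exists_nat_gt (1 / (x - c))
    filter_upwards [eventually_ge_atTop m] with n hn
    have hxc : 0 < x - c := sub_pos.2 hx
    have h1 : 1 ≤ (n : ℝ) * (x - c) := by
      rw [div_lt_iff₀ hxc] at hm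
      have : (m : ℝ) * (x - c) ≤ (n : ℝ) * (x - c) :=
        mul_le_mul_of_nonneg_right (by exact_mod_cast hn) hxc.le
      linarith
    unfold lim0Ramp
    rw [max_eq_right (by linarith), min_eq_left h1]
    rfl
  · rw [Set.indicator_of_notMem (show x ∉ Set.Ioi c from hx)]
    refine tendsto_const_nhds.congr fun n => ?_
    rw [lim0Ramp_zero (not_lt.1 hx)]

/-- LIM2: a positive proportion of the entries is near the top: for `0 < κ < μ (b - δ, ∞)`,
eventually at least `κ N` entries are `≥ b - δ` (bounded continuous minorant of the indicator of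
`(b - δ, ∞)`). -/
theorem eventually_count (h : IsArray μ lam) (c κ : ℝ) (hκ : κ < μ.real (Set.Ioi c)) :
    ∀ᶠ N : ℕ in atTop, κ * N ≤ ((Finset.univ.filter fun i : Fin N => c ≤ lam N i).card : ℝ) := by
  have h1 : Tendsto (fun n : ℕ => ∫ x, lim0Ramp c n x ∂μ) atTop
      (𝓝 (∫ x, (Set.Ioi c).indicator 1 x ∂μ)) := by
    refine tendsto_integral_of_dominated_convergence (fun _ => (1 : ℝ))
      (fun n => (lim0Ramp_cont c n).aestronglyMeasurable) (integrable_const _)
      (fun n => Eventually.of_forall fun x => lim0Ramp_norm c n x)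
      (Eventually.of_forall fun x => lim0Ramp_tendsto c x)
  rw [integral_indicator_one measurableSet_Ioi] at h1
  obtain ⟨n, hn⟩ := (h1.eventually (lt_mem_nhds hκ)).exists
  have h2 := h.weak (BoundedContinuousFunction.ofNormedAddCommGroup (lim0Ramp c n)
    (lim0Ramp_cont c n) 1 (lim0Ramp_norm c n))
  have h3 := h2.eventually (lt_mem_nhds (show κ < _ from hn))
  filter_upwards [h3, eventually_gt_atTop 0] with N hN hN0
  have hN0' : (0 : ℝ) < N := by exact_mod_cast hN0
  have h4 : ∑ i, lim0Ramp c n (lam N i) ≤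
      ((Finset.univ.filter fun i : Fin N => c ≤ lam N i).card : ℝ) := by
    rw [Finset.card_filter, Nat.cast_sum]
    refine Finset.sum_le_sum fun i _ => ?_
    by_cases hi : c ≤ lam N i
    · rw [if_pos hi]
      simpa using lim0Ramp_le c n (lam N i)
    · rw [if_neg hi, lim0Ramp_zero (not_le.1 hi).le]
      simp
  have h5 : κ < 1 / (N : ℝ) * ∑ i, lim0Ramp c n (lam N i) := hN
  rw [one_div, ← div_eq_inv_mul, lt_div_iff₀ hN0'] at h5
  linarith

/-- LIM3: the top of the support is charged. -/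
theorem top_pos (hμ : IsCompact μ.support) (δ : ℝ) (hδ : 0 < δ) :
    0 < μ.real (Set.Ioi (sSup μ.support - δ)) := by
  have hne : μ.support.Nonempty := Measure.nonempty_support (IsProbabilityMeasure.ne_zero μ)
  have hb := hμ.sSup_mem hne
  rw [Measure.mem_support_iff_forall] at hb
  have h1 : 0 < μ (Set.Ioi (sSup μ.support - δ)) := hb _ (Ioi_mem_nhds (by linarith))
  exact ENNReal.toReal_pos h1.ne' (measure_ne_top μ _)

end Vale.Agent.P166
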