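import Vale.Agent.P166.Abel

/-! # P166, W2: closeness of sorted arrays -/

namespace Vale.Agent.P166

open Finset

/-- W2: `abel_fin` with `g = lam - A`, `d = lam' - lam` and with `g = lam' - A`, `d = lam - lam'`
(partial sums by `top_sums`); the sum of the two inequalities is `- ∑ (lam - lam')^2`. -/
theorem sq_dist {N : ℕ} (lam lam' : Fin N → ℝ) (h : Antitone lam) (h' : Antitone lam') (A L ε : ℝ)
    (hL : 0 ≤ L) (hε : 0 ≤ ε) (hb : ∀ i, A ≤ lam i ∧ lam i ≤ A + L)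
    (hb' : ∀ i, A ≤ lam' i ∧ lam' i ≤ A + L) (hs : ∀ t, |stop lam t - stop lam' t| ≤ ε) :
    ∑ i, (lam i - lam' i) ^ 2 ≤ 2 * L * ε * N := by
  sorry

theorem mean_dist {N : ℕ} (lam lam' : Fin N → ℝ) (h : Antitone lam) (h' : Antitone lam')
    (A L ε : ℝ) (hL : 0 ≤ L) (hε : 0 ≤ ε) (hb : ∀ i, A ≤ lam i ∧ lam i ≤ A + L)
    (hb' : ∀ i, A ≤ lam' i ∧ lam' i ≤ A + L) (hs : ∀ t, |stop lam t - stop lam' t| ≤ ε) :
    (1 / (N : ℝ)) * ∑ i, max (lam i - lam' i) 0 ≤ Real.sqrt (2 * L * ε) := by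
  sorry

end Vale.Agent.P166
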