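import Vale.Agent.P166.Finite
import Vale.Agent.P166.W2
import Vale.Agent.P166.Lim

/-! # P166, MAIN: universality and comparison (helper22) -/

namespace Vale.Agent.P166

open MeasureTheory Filter Topology

variable {β : ℝ} {μ μ' : Measure ℝ} [IsProbabilityMeasure μ] [IsProbabilityMeasure μ']
  {lam lam' : ∀ N : ℕ, Fin N → ℝ}
  (ν : ∀ N : ℕ, Measure (OG N)) [∀ N, IsProbabilityMeasure (ν N)]
  [∀ N, (ν N).IsMulLeftInvariant]

/-- quantitative comparison -/
theorem compare (hβ : 0 ≤ β) (hμ : IsCompact μ.support) (hμ' : IsCompact μ'.support)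
    (h : IsArray μ lam) (h' : IsArray μ' lam') (δ ε κ η : ℝ) (hδ : 0 < δ) (hε : 0 ≤ ε)
    (hκ : 0 < κ) (hκ' : κ < μ.real (Set.Ioi (sSup μ.support - δ)))
    (hc : ∀ t, ∫ x, max (x - t) 0 ∂μ ≤ ∫ x, max (x - t) 0 ∂μ' + ε) (hη : 0 < η) :
    ∀ᶠ N : ℕ in atTop, ∫ U, pressure β (lam N) U ∂(ν N) ≤
      ∫ U, pressure β (lam' N) U ∂(ν N) + β * δ + β * ε / (2 * κ) + η := by
  have hε' : 0 < η * κ / (β + 1) := by positivity
  filter_upwards [stop_unif hμ h _ hε', stop_unif hμ' h' _ hε', eventually_range h δ hδ,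
    eventually_count h _ κ hκ', eventually_gt_atTop 0] with N h1 h2 h3 h4 h5
  have h6 : ∀ t, stop (lam N) t ≤ stop (lam' N) t + (ε + 2 * (η * κ / (β + 1))) := by
    intro t
    have a1 := (abs_le.mp (h1 t)).2
    have a2 := (abs_le.mp (h2 t)).1
    have a3 := hc t
    linarith
  have h7 := finite_ineq β (ν N) h5 hβ (lam N) (lam' N) (sSup μ.support) δ
    (ε + 2 * (η * κ / (β + 1))) κ hδ.le (by positivity) hκ (fun i => (h3 i).2) h4 h6
  have h8 : β * (ε + 2 * (η * κ / (β + 1))) / (2 * κ) = β * ε / (2 * κ) + β / (β + 1) * η := by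
    field_simp
  have h9 : β / (β + 1) * η ≤ 1 * η := by
    refine mul_le_mul_of_nonneg_right ?_ hη.le
    rw [div_le_one (by positivity)]
    linarith
  rw [h8] at h7
  linarith

/-- monotonicity in the increasing convex order -/
theorem compare_zero (hβ : 0 ≤ β) (hμ : IsCompact μ.support) (hμ' : IsCompact μ'.support)
    (h : IsArray μ lam) (h' : IsArray μ' lam')
    (hc : ∀ t, ∫ x, max (x - t) 0 ∂μ ≤ ∫ x, max (x - t) 0 ∂μ') (η : ℝ) (hη : 0 < η) :
    ∀ᶠ N : ℕ in atTop, ∫ U, pressure β (lam N) U ∂(ν N) ≤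
      ∫ U, pressure β (lam' N) U ∂(ν N) + η := by
  have hδ : 0 < η / (2 * (β + 1)) := by positivity
  have hp := top_pos hμ _ hδ
  filter_upwards [compare ν hβ hμ hμ' h h' (η / (2 * (β + 1))) 0
    (μ.real (Set.Ioi (sSup μ.support - η / (2 * (β + 1)))) / 2) (η / 2) hδ le_rfl
    (by linarith) (by linarith) (fun t => by simpa using hc t) (by linarith)] with N hN
  have h1 : β * (η / (2 * (β + 1))) ≤ η / 2 := by
    rw [mul_div_assoc', div_le_div_iff₀ (by positivity) (by norm_num)]
    nlinarith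
  rw [mul_zero, zero_div] at hN
  linarith

/-- the same law: the mean pressures are asymptotically equal -/
theorem same_law (hβ : 0 ≤ β) (hμ : IsCompact μ.support) {lam lam' : ∀ N : ℕ, Fin N → ℝ}
    (h : IsArray μ lam) (h' : IsArray μ lam') :
    Tendsto (fun N : ℕ => ∫ U, pressure β (lam N) U ∂(ν N) - ∫ U, pressure β (lam' N) U ∂(ν N))
      atTop (𝓝 0) := by
  rw [Metric.tendsto_atTop']
  intro ε hε
  have h1 := compare_zero ν hβ hμ hμ h h' (fun t => le_rfl) (ε / 2) (by linarith)
  have h2 := compare_zero ν hβ hμ hμ h' h (fun t => le_rfl) (ε / 2) (by linarith)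
  obtain ⟨N0, hN0⟩ := (h1.and h2).exists_forall_of_atTop
  refine ⟨N0, fun N hN => ?_⟩
  obtain ⟨a1, a2⟩ := hN0 N hN.le
  rw [Real.dist_eq, sub_zero, abs_lt]
  constructor <;> linarith

/-- the same law, sorted arrays, the same orthogonal matrix: `L^1` closeness -/
theorem same_law_couple (hβ : 0 ≤ β) (hμ : IsCompact μ.support) {lam lam' : ∀ N : ℕ, Fin N → ℝ}
    (h : IsArray μ lam) (h' : IsArray μ lam') (hs : ∀ N, Antitone (lam N))
    (hs' : ∀ N, Antitone (lam' N)) :
    Tendsto (fun N : ℕ => ∫ U, |pressure β (lam N) U - pressure β (lam' N) U| ∂(ν N))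
      atTop (𝓝 0) := by
  rw [Metric.tendsto_atTop']
  intro ε hε
  have hδ : 0 < ε / (8 * (β + 1)) := by positivity
  set δ := ε / (8 * (β + 1)) with hδdef
  have hp := top_pos hμ _ hδ
  set κ := μ.real (Set.Ioi (sSup μ.support - δ)) / 2 with hκdef
  have hκ : 0 < κ := by rw [hκdef]; linarith
  have hκ' : κ < μ.real (Set.Ioi (sSup μ.support - δ)) := by rw [hκdef]; linarith
  obtain ⟨L, hL0, hL⟩ : ∃ L : ℝ, 0 < L ∧ sSup μ.support + 1 ≤ (sInf μ.support - 1) + L :=
    ⟨max 1 (sSup μ.support + 1 - (sInf μ.support - 1)), lt_max_of_lt_left one_pos,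
      by linarith [le_max_right 1 (sSup μ.support + 1 - (sInf μ.support - 1))]⟩
  -- `sqrt (2 * L * (2 e))` is small
  obtain ⟨e, he0, he⟩ : ∃ e : ℝ, 0 < e ∧
      β / (2 * κ) * Real.sqrt (2 * L * (2 * e)) ≤ ε / 8 := by
    refine ⟨(ε / 8 * (2 * κ) / (β + 1)) ^ 2 / (4 * L), by positivity, ?_⟩
    have h1 : 2 * L * (2 * ((ε / 8 * (2 * κ) / (β + 1)) ^ 2 / (4 * L))) =
        (ε / 8 * (2 * κ) / (β + 1)) ^ 2 := by
      field_simp
      ring
    rw [h1, Real.sqrt_sq (by positivity)]
    have h2 : β / (2 * κ) * (ε / 8 * (2 * κ) / (β + 1)) = β / (β + 1) * (ε / 8) := by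
      field_simp
    rw [h2]
    have h3 : β / (β + 1) ≤ 1 := by
      rw [div_le_one (by positivity)]
      linarith
    nlinarith
  have key : ∀ᶠ N : ℕ in atTop,
      ∫ U, |pressure β (lam N) U - pressure β (lam' N) U| ∂(ν N) ≤ ε / 2 := by
    filter_upwards [stop_unif hμ h e he0, stop_unif hμ h' e he0, eventually_range h δ hδ,
      eventually_range h' δ hδ, eventually_range h 1 one_pos, eventually_range h' 1 one_pos,
      eventually_count h _ κ hκ', eventually_count h' _ κ hκ', eventually_gt_atTop 0]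
      with N s1 s2 r1 r2 q1 q2 c1 c2 hN
    have d : ∀ t, |stop (lam N) t - stop (lam' N) t| ≤ 2 * e := by
      intro t
      have a1 := abs_le.mp (s1 t)
      have a2 := abs_le.mp (s2 t)
      rw [abs_le]
      constructor <;> linarith [a1.1, a1.2, a2.1, a2.2]
    have d' : ∀ t, |stop (lam' N) t - stop (lam N) t| ≤ 2 * e := by
      intro t
      rw [abs_sub_comm]
      exact d t
    have b1 : ∀ i, sInf μ.support - 1 ≤ lam N i ∧ lam N i ≤ (sInf μ.support - 1) + L :=
      fun i => ⟨(q1 i).1, (q1 i).2.trans hL⟩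
    have b2 : ∀ i, sInf μ.support - 1 ≤ lam' N i ∧ lam' N i ≤ (sInf μ.support - 1) + L :=
      fun i => ⟨(q2 i).1, (q2 i).2.trans hL⟩
    have m1 := mean_dist (lam N) (lam' N) (hs N) (hs' N) _ L (2 * e) hL0.le (by linarith) b1 b2 d
    have m2 := mean_dist (lam' N) (lam N) (hs' N) (hs N) _ L (2 * e) hL0.le (by linarith) b2 b1 d'
    have f1 := finite_couple β (ν N) hN hβ (lam N) (lam' N) (sSup μ.support) δ κ hδ.le hκ
      (fun i => (r1 i).2) c1
    have f2 := finite_couple β (ν N) hN hβ (lam' N) (lam N) (sSup μ.support) δ κ hδ.le hκ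
      (fun i => (r2 i).2) c2
    have hβκ : 0 ≤ β / (2 * κ) := by positivity
    have g1 := mul_le_mul_of_nonneg_left m1 hβκ
    have g2 := mul_le_mul_of_nonneg_left m2 hβκ
    have g3 : β * δ ≤ ε / 8 := by
      rw [hδdef, mul_div_assoc', div_le_div_iff₀ (by positivity) (by norm_num)]
      nlinarith
    have i1 : Integrable (fun U => max (pressure β (lam N) U - pressure β (lam' N) U) 0) (ν N) :=
      ((integrable_pressure β (lam N) (ν N)).sub (integrable_pressure β (lam' N) (ν N))).pos_part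
    have i2 : Integrable (fun U => max (pressure β (lam' N) U - pressure β (lam N) U) 0) (ν N) :=
      ((integrable_pressure β (lam' N) (ν N)).sub (integrable_pressure β (lam N) (ν N))).pos_part
    have i3 : ∫ U, |pressure β (lam N) U - pressure β (lam' N) U| ∂(ν N) =
        ∫ U, max (pressure β (lam N) U - pressure β (lam' N) U) 0 ∂(ν N) +
        ∫ U, max (pressure β (lam' N) U - pressure β (lam N) U) 0 ∂(ν N) := by
      rw [← integral_add i1 i2]
      refine integral_congr_ae (Eventually.of_forall fun U => ?_)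
      change |pressure β (lam N) U - pressure β (lam' N) U| = _ + _
      rcases le_total (pressure β (lam N) U) (pressure β (lam' N) U) with hle | hle
      · rw [abs_of_nonpos (by linarith), max_eq_right (by linarith), max_eq_left (by linarith)]
        ring
      · rw [abs_of_nonneg (by linarith), max_eq_left (by linarith), max_eq_right (by linarith)]
        ring
    rw [i3]
    linarith
  obtain ⟨N0, hN0⟩ := key.exists_forall_of_atTop
  refine ⟨N0, fun N hN => ?_⟩
  have a1 := hN0 N hN.le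
  rw [Real.dist_eq, sub_zero, abs_of_nonneg (integral_nonneg fun U => abs_nonneg _)]
  linarith

omit [IsProbabilityMeasure μ] in
theorem isArray_perm {lam : ∀ N : ℕ, Fin N → ℝ} (h : IsArray μ lam)
    (π : ∀ N : ℕ, Equiv.Perm (Fin N)) : IsArray μ (fun N => lam N ∘ π N) := by
  refine ⟨fun f => ?_, ?_, ?_⟩
  · refine (h.weak f).congr fun N => ?_
    congr 1
    exact (Equiv.sum_comp (π N) (fun i => f (lam N i))).symm
  · refine h.lo.congr fun N => ?_
    exact ((π N).surjective.iInf_comp (lam N)).symm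
  · refine h.hi.congr fun N => ?_
    exact ((π N).surjective.iSup_comp (lam N)).symm

theorem exists_sort {N : ℕ} (l : Fin N → ℝ) : ∃ π : Equiv.Perm (Fin N), Antitone (l ∘ π) := by
  refine ⟨Tuple.sort (fun i => -l i), ?_⟩
  have h := Tuple.monotone_sort (fun i => -l i)
  intro i j hij
  have := h hij
  simp only [Function.comp] at this ⊢
  linarith

/-- the same law: convergence in `L^1` is the same for both arrays -/
theorem same_law_L1 (hβ : 0 ≤ β) (hμ : IsCompact μ.support) {lam lam' : ∀ N : ℕ, Fin N → ℝ}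
    (h : IsArray μ lam) (h' : IsArray μ lam') (a : ℕ → ℝ)
    (ha : Tendsto (fun N : ℕ => ∫ U, |pressure β (lam N) U - a N| ∂(ν N)) atTop (𝓝 0)) :
    Tendsto (fun N : ℕ => ∫ U, |pressure β (lam' N) U - a N| ∂(ν N)) atTop (𝓝 0) := by
  choose π hπ using fun N => exists_sort (lam N)
  choose π' hπ' using fun N => exists_sort (lam' N)
  have h1 := same_law_couple ν hβ hμ (isArray_perm h π) (isArray_perm h' π') hπ hπ'
  have h2 := h1.add ha
  rw [add_zero] at h2
  refine squeeze_zero (fun N => integral_nonneg fun U => abs_nonneg _) (fun N => ?_) h2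
  rw [← integral_comp_perm β (lam' N) (ν N) (π' N) (fun x => |x - a N|),
    ← integral_comp_perm β (lam N) (ν N) (π N) (fun x => |x - a N|)]
  have j1 := integrable_pressure β (lam N ∘ π N) (ν N)
  have j2 := integrable_pressure β (lam' N ∘ π' N) (ν N)
  have k1 : Integrable (fun U => |pressure β (lam N ∘ π N) U - pressure β (lam' N ∘ π' N) U|)
      (ν N) := (j1.sub j2).abs
  have k2 : Integrable (fun U => |pressure β (lam N ∘ π N) U - a N|) (ν N) :=
    (j1.sub (integrable_const _)).abs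
  have k3 : Integrable (fun U => |pressure β (lam' N ∘ π' N) U - a N|) (ν N) :=
    (j2.sub (integrable_const _)).abs
  rw [← integral_add k1 k2]
  refine integral_mono k3 (k1.add k2) fun U => ?_
  change _ ≤ |pressure β (lam N ∘ π N) U - pressure β (lam' N ∘ π' N) U| +
    |pressure β (lam N ∘ π N) U - a N|
  have h3 := abs_sub_le (pressure β (lam' N ∘ π' N) U) (pressure β (lam N ∘ π N) U) (a N)
  have h4 := abs_sub_comm (pressure β (lam' N ∘ π' N) U) (pressure β (lam N ∘ π N) U)
  linarith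

end Vale.Agent.P166
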